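import Vale.Agent.Lib.P084.Restrict

/-!
# P084: the Mazur-Ulam property is separably determined

If every closed separable subspace of a real Banach space `X` has the Mazur-Ulam property,
then `X` has the Mazur-Ulam property.
-/

namespace Vale.Agent.Results.P084.MUPSeparablyDetermined

open Metric Set Function TopologicalSpace Vale.Agent.Lib.P084

universe u v

theorem result (X : Type u) [NormedAddCommGroup X] [NormedSpace ℝ X] [CompleteSpace X]
    (h : ∀ X₀ : Submodule ℝ X, IsClosed (X₀ : Set X) → IsSeparable (X₀ : Set X) →
      MazurUlamProperty.{u, v} X₀) :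
    MazurUlamProperty.{u, v} X := by
  intro Y _ _ _ f hf hs
  refine extendsLinearly_of_separable f hf hs ?_
  intro P Q hPc hPs hQc hQs f' hf' hs' _
  have : CompleteSpace Q := hQc.completeSpace_coe
  exact h P hPc hPs Q f' hf' hs'

end Vale.Agent.Results.P084.MUPSeparablyDetermined
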