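import Vale.Agent.Lib.P084.Restrict

/-!
# P084: Tingley's problem reduces to separable Banach spaces

If every surjective isometry between the unit spheres of two separable real Banach spaces
extends linearly, then so does every surjective isometry between the unit spheres of two
arbitrary real Banach spaces.
-/

namespace Vale.Agent.Results.P084.TingleySeparableReduction

open Metric Set Function TopologicalSpace Vale.Agent.Lib.P084

universe u v

theorem result
    (h : ∀ (X : Type u) [NormedAddCommGroup X] [NormedSpace ℝ X] [CompleteSpace X]
      [SeparableSpace X]
      (Y : Type v) [NormedAddCommGroup Y] [NormedSpace ℝ Y] [CompleteSpace Y]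
      [SeparableSpace Y]
      (f : sphere (0 : X) 1 → sphere (0 : Y) 1), Isometry f → Surjective f → ExtendsLinearly f)
    (X : Type u) [NormedAddCommGroup X] [NormedSpace ℝ X] [CompleteSpace X]
    (Y : Type v) [NormedAddCommGroup Y] [NormedSpace ℝ Y] [CompleteSpace Y]
    (f : sphere (0 : X) 1 → sphere (0 : Y) 1) (hf : Isometry f) (hs : Surjective f) :
    ExtendsLinearly f := by
  refine extendsLinearly_of_separable f hf hs ?_
  intro P Q hPc hPs hQc hQs f' hf' hs' _
  have : CompleteSpace P := hPc.completeSpace_coe
  have : CompleteSpace Q := hQc.completeSpace_coe
  have : SeparableSpace P := hPs.separableSpace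
  have : SeparableSpace Q := hQs.separableSpace
  exact h P Q f' hf' hs'

end Vale.Agent.Results.P084.TingleySeparableReduction
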